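import Vale.Agent.P159.MathlibUsed

/-!
The abstract end of the argument: a random variable `Y` with moderate variance such that
`P (|Y - m| < 3/8)` is small for every integer `m` has `E cos (2 π Y) < 0`.
-/

open MeasureTheory Filter Topology
open scoped BigOperators

namespace Vale.Agent.P159.H261

theorem cos_bound {y : ℝ} {m : ℤ} (h1 : |y - m| ≤ 1 / 2) (h2 : 3 / 8 ≤ |y - m|) :
    Real.cos (2 * Real.pi * y) ≤ -(7 / 10) := by
  have e1 : Real.cos (2 * Real.pi * y) = Real.cos (2 * Real.pi * |y - m|) := by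
    rw [← Real.cos_sub_int_mul_two_pi (2 * Real.pi * y) m, ← Real.cos_abs]
    congr 1
    have : 2 * Real.pi * y - m * (2 * Real.pi) = 2 * Real.pi * (y - m) := by ring
    rw [this, abs_mul, abs_of_pos Real.two_pi_pos]
  rw [e1]
  have hpi := Real.pi_pos
  have h3 : Real.cos (2 * Real.pi * |y - m|) ≤ Real.cos (3 * Real.pi / 4) := by
    apply Real.cos_le_cos_of_nonneg_of_le_pi
    · positivity
    · nlinarith only [hpi, h1]
    · nlinarith only [hpi, h2]
  have h4 : Real.cos (3 * Real.pi / 4) = -(Real.sqrt 2 / 2) := by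
    have : 3 * Real.pi / 4 = Real.pi - Real.pi / 4 := by ring
    rw [this, Real.cos_pi_sub, Real.cos_pi_div_four]
  have h5 : (7 / 5 : ℝ) ≤ Real.sqrt 2 := by
    rw [Real.le_sqrt' (by norm_num)]
    norm_num
  rw [h4] at h3
  linarith only [h3, h5]

theorem pointwise (y : ℝ) {M : ℕ} (hM : 1 ≤ M) :
    Real.cos (2 * Real.pi * y) + 7 / 10 ≤
      2 * (∑ m ∈ Finset.Icc (-(M : ℤ)) M, (if |y - m| < 3 / 8 then (1 : ℝ) else 0) +
        y ^ 2 / (M : ℝ) ^ 2) := by
  have hM0 : (0 : ℝ) < M := by exact_mod_cast hM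
  have hs0 : ∀ m ∈ Finset.Icc (-(M : ℤ)) M, (0 : ℝ) ≤ (if |y - m| < 3 / 8 then (1 : ℝ) else 0) := by
    intro m _
    split_ifs <;> norm_num
  have hS : (0 : ℝ) ≤ ∑ m ∈ Finset.Icc (-(M : ℤ)) M, (if |y - m| < 3 / 8 then (1 : ℝ) else 0) :=
    Finset.sum_nonneg hs0
  have hY : 0 ≤ y ^ 2 / (M : ℝ) ^ 2 := by positivity
  have hr : |y - (round y : ℤ)| ≤ 1 / 2 := abs_sub_round y
  by_cases h : 3 / 8 ≤ |y - (round y : ℤ)|
  · have := cos_bound hr h
    linarith only [this, hS, hY]
  · push Not at h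
    have hc := Real.cos_le_one (2 * Real.pi * y)
    by_cases hm : (round y) ∈ Finset.Icc (-(M : ℤ)) M
    · have h1 : (1 : ℝ) ≤ ∑ m ∈ Finset.Icc (-(M : ℤ)) M,
          (if |y - m| < 3 / 8 then (1 : ℝ) else 0) := by
        have := Finset.single_le_sum hs0 hm
        simp only [if_pos h] at this
        exact this
      linarith only [h1, hY, hc]
    · have h1 : (1 : ℝ) ≤ y ^ 2 / (M : ℝ) ^ 2 := by
        rw [one_le_div (by positivity)]
        rw [← sq_abs y]
        refine pow_le_pow_left₀ hM0.le ?_ 2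
        simp only [Finset.mem_Icc, not_and_or, not_le] at hm
        have hab := abs_lt.1 h
        rcases hm with hm | hm
        · have h2 : ((round y : ℤ) : ℝ) ≤ -(M : ℝ) - 1 := by
            have : round y ≤ -(M : ℤ) - 1 := by omega
            have := (Int.cast_le (R := ℝ)).2 this
            push_cast at this
            exact this
          have h3 := neg_abs_le y
          linarith only [h2, h3, hab.2]
        · have h2 : (M : ℝ) + 1 ≤ ((round y : ℤ) : ℝ) := by
            have : (M : ℤ) + 1 ≤ round y := by omega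
            have := (Int.cast_le (R := ℝ)).2 this
            push_cast at this
            exact this
          have h3 := le_abs_self y
          linarith only [h2, h3, hab.1]
      linarith only [h1, hS, hc]

/-- the contradiction -/
theorem endgame {H : Type*} (W Y : H → ℝ) (hW0 : ∀ h, 0 ≤ W h) (hW : Summable W)
    (hWY : Summable fun h => W h * Y h ^ 2) {V δ : ℝ} {M : ℕ} (hM : 1 ≤ M)
    (hV : ∑' h, W h * Y h ^ 2 ≤ V * ∑' h, W h)
    (hm : ∀ m : ℤ, ∑' h, W h * (if |Y h - m| < 3 / 8 then 1 else 0) ≤ δ * ∑' h, W h)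
    (hpos : 0 < ∑' h, W h * Real.cos (2 * Real.pi * Y h))
    (hsmall : 2 * ((2 * M + 1) * δ + V / (M : ℝ) ^ 2) ≤ 7 / 10) : False := by
  have hM0 : (0 : ℝ) < M := by exact_mod_cast hM
  have hZ : 0 ≤ ∑' h, W h := tsum_nonneg hW0
  have s1 : ∀ f : H → ℝ, (∀ h, |f h| ≤ 1) → Summable fun h => W h * f h := by
    intro f hf
    refine Summable.of_norm_bounded hW fun h => ?_
    rw [Real.norm_eq_abs, abs_mul, abs_of_nonneg (hW0 h)]
    exact mul_le_of_le_one_right (hW0 h) (hf h)
  have sc : Summable fun h => W h * Real.cos (2 * Real.pi * Y h) :=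
    s1 _ fun h => Real.abs_cos_le_one _
  have si : ∀ m : ℤ, Summable fun h => W h * (if |Y h - m| < 3 / 8 then (1 : ℝ) else 0) :=
    fun m => s1 _ fun h => by split_ifs <;> norm_num
  have sS : Summable fun h => ∑ m ∈ Finset.Icc (-(M : ℤ)) M,
      W h * (if |Y h - m| < 3 / 8 then (1 : ℝ) else 0) := summable_sum fun m _ => si m
  have sV : Summable fun h => W h * Y h ^ 2 / (M : ℝ) ^ 2 := hWY.div_const _
  have h1 : ∑' h, (W h * Real.cos (2 * Real.pi * Y h) + 7 / 10 * W h) ≤
      ∑' h, 2 * (∑ m ∈ Finset.Icc (-(M : ℤ)) M, W h * (if |Y h - m| < 3 / 8 then (1 : ℝ) else 0) +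
        W h * Y h ^ 2 / (M : ℝ) ^ 2) := by
    refine Summable.tsum_le_tsum (fun h => ?_) (sc.add (hW.mul_left _)) ((sS.add sV).mul_left _)
    have := mul_le_mul_of_nonneg_left (pointwise (Y h) hM) (hW0 h)
    rw [← Finset.mul_sum]
    calc W h * Real.cos (2 * Real.pi * Y h) + 7 / 10 * W h
        = W h * (Real.cos (2 * Real.pi * Y h) + 7 / 10) := by ring
      _ ≤ _ := this
      _ = _ := by ring
  rw [sc.tsum_add (hW.mul_left _), tsum_mul_left, tsum_mul_left, sS.tsum_add sV,
    Summable.tsum_finsetSum fun m _ => si m, tsum_div_const] at h1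
  have h2 : ∑ m ∈ Finset.Icc (-(M : ℤ)) M, ∑' h, W h * (if |Y h - m| < 3 / 8 then (1 : ℝ) else 0) ≤
      (2 * M + 1) * (δ * ∑' h, W h) := by
    refine (Finset.sum_le_sum fun m _ => hm m).trans (le_of_eq ?_)
    rw [Finset.sum_const, Int.card_Icc, nsmul_eq_mul]
    have : ((M : ℤ) + 1 - -(M : ℤ)).toNat = 2 * M + 1 := by omega
    rw [this]
    push_cast
    ring
  have h3 : (∑' h, W h * Y h ^ 2) / (M : ℝ) ^ 2 ≤ V / (M : ℝ) ^ 2 * ∑' h, W h := by
    rw [div_mul_eq_mul_div]
    exact div_le_div_of_nonneg_right hV (by positivity)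
  have h4 := mul_le_mul_of_nonneg_right hsmall hZ
  nlinarith only [h1, h2, h3, h4, hpos]

end Vale.Agent.P159.H261
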