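import Vale.Agent.P159.H261.SplitT

/-!
The uniform horizontal twist: the stiffness of the triangulated block is at most the stiffness of
the square block.
-/

open MeasureTheory Filter Topology
open scoped BigOperators

namespace Vale.Agent.P159.H261

open Vale.Agent.P159 Vale.Agent.P159.UJ Vale.Agent.P159.H353

/-- the indicator of the horizontal and the diagonal bonds -/
def th {N : ℕ} : Ed N → ℝ
  | Sum.inl _ => 1
  | Sum.inr (Sum.inl _) => 0
  | Sum.inr (Sum.inr _) => 1

theorem sum_cyc {N : ℕ} (f : ℕ → ℝ) (h : f 0 = f N) :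
    ∑ j ∈ Finset.range N, f (j + 1) = ∑ j ∈ Finset.range N, f j := by
  have h1 := Finset.sum_range_succ f N
  have h2 := Finset.sum_range_succ' f N
  linarith

theorem sum_low {N : ℕ} (hN : 1 ≤ N) (f : ℕ → ℝ) :
    ∑ j ∈ Finset.range (N - 1), f (j + 1) = ∑ j ∈ Finset.range N, f j - f 0 := by
  obtain ⟨n, rfl⟩ : ∃ n, N = n + 1 := ⟨N - 1, by omega⟩
  have h2 := Finset.sum_range_succ' f n
  simp only [Nat.add_sub_cancel]
  linarith

/-- horizontal terms -/
noncomputable def FH (s : ℝ) (y : Ginf) (i j : ℕ) : ℝ :=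
  cosT (y ((i : ℤ), (j : ℤ)) - y ((i : ℤ) + 1, (j : ℤ)) + (s : T))

/-- vertical terms -/
noncomputable def FV (y : Ginf) (i j : ℕ) : ℝ :=
  cosT (y ((i : ℤ), (j : ℤ)) - y ((i : ℤ), (j : ℤ) + 1))

theorem off_inner {N : ℕ} {y : Ginf} (hy : ∀ z, z ∉ inner N → y z = 0) {i j : ℤ}
    (h : i ≤ 0 ∨ (N : ℤ) ≤ i ∨ j ≤ 0 ∨ (N : ℤ) ≤ j) : y (i, j) = 0 := by
  apply hy
  simp only [inner, Finset.mem_Icc, Prod.le_def]
  omega

theorem energy_id {N : ℕ} (hN : 1 ≤ N) (b c s : ℝ) {y : Ginf}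
    (hy : ∀ z, z ∉ inner N → y z = 0) :
    ∑ e : KB N, kJ b c e * cosT (kd y e + ((ka (s • th) e : ℝ) : T)) =
      b * (∑ i ∈ Finset.range N, ∑ j ∈ Finset.range N, FV y (i + 1) j - N +
        (∑ i ∈ Finset.range N, ∑ j ∈ Finset.range N, FH s y i j - N * Real.cos s)) +
      c * (∑ i ∈ Finset.range N, ∑ j ∈ Finset.range N, FH s y i j +
        ∑ i ∈ Finset.range N, ∑ j ∈ Finset.range N, FV y (i + 1) j) := by
  have hV0 : ∀ j : ℕ, FV y 0 j = 1 := by
    intro j
    unfold FV
    rw [off_inner hy (by left; simp), off_inner hy (by left; simp), sub_zero, cosT_zero]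
  have hVN : ∀ j : ℕ, FV y N j = 1 := by
    intro j
    unfold FV
    rw [off_inner hy (by right; left; simp), off_inner hy (by right; left; simp), sub_zero,
      cosT_zero]
  have hH0 : ∀ i : ℕ, FH s y i 0 = Real.cos s := by
    intro i
    unfold FH
    rw [off_inner hy (by right; right; left; simp), off_inner hy (by right; right; left; simp),
      sub_zero, zero_add, cosT_coe]
  rw [sum_KB, Fintype.sum_sum_type, Fintype.sum_prod_type, Fintype.sum_prod_type,
    Fintype.sum_prod_type, Fintype.sum_prod_type]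
  have e1 : ∑ x : Fin (N - 1), ∑ x_1 : Fin N, kJ b c (Sum.inl (Sum.inl (x, x_1)) : KB N) *
      cosT (kd y (Sum.inl (Sum.inl (x, x_1)) : KB N) +
        ((ka (s • th) (Sum.inl (Sum.inl (x, x_1)) : KB N) : ℝ) : T)) =
      b * (∑ i ∈ Finset.range N, ∑ j ∈ Finset.range N, FV y (i + 1) j - N) := by
    have h1 : ∀ (i : Fin (N - 1)) (j : Fin N), kJ b c (Sum.inl (Sum.inl (i, j)) : KB N) *
      cosT (kd y (Sum.inl (Sum.inl (i, j)) : KB N) +
        ((ka (s • th) (Sum.inl (Sum.inl (i, j)) : KB N) : ℝ) : T)) = b * FV y (i + 1) j := by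
      intro i j
      simp only [kJ, kd, ku, kv, st, en, ka, Pi.smul_apply, th, smul_eq_mul, mul_zero,
        AddCircle.coe_zero, add_zero, FV]
      push_cast
      rfl
    simp_rw [h1]
    simp_rw [← Finset.mul_sum]
    congr 1
    have h2 : ∀ i : Fin (N - 1), ∑ j : Fin N, FV y (i + 1) j =
        (fun i : ℕ => ∑ j ∈ Finset.range N, FV y (i + 1) j) i := by
      intro i
      exact Fin.sum_univ_eq_sum_range (fun j => FV y (i + 1) j) N
    simp_rw [h2]
    rw [Fin.sum_univ_eq_sum_range (fun i : ℕ => ∑ j ∈ Finset.range N, FV y (i + 1) j) (N - 1),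
      sum_low hN (fun i => ∑ j ∈ Finset.range N, FV y i j)]
    rw [sum_cyc (fun i => ∑ j ∈ Finset.range N, FV y i j)]
    · simp only [hV0]
      simp
    · simp only [hV0, hVN]
  have e2 : ∑ x : Fin N, ∑ x_1 : Fin (N - 1), kJ b c (Sum.inl (Sum.inr (x, x_1)) : KB N) *
      cosT (kd y (Sum.inl (Sum.inr (x, x_1)) : KB N) +
        ((ka (s • th) (Sum.inl (Sum.inr (x, x_1)) : KB N) : ℝ) : T)) =
      b * (∑ i ∈ Finset.range N, ∑ j ∈ Finset.range N, FH s y i j - N * Real.cos s) := by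
    have h1 : ∀ (i : Fin N) (j : Fin (N - 1)), kJ b c (Sum.inl (Sum.inr (i, j)) : KB N) *
      cosT (kd y (Sum.inl (Sum.inr (i, j)) : KB N) +
        ((ka (s • th) (Sum.inl (Sum.inr (i, j)) : KB N) : ℝ) : T)) = b * FH s y i (j + 1) := by
      intro i j
      simp only [kJ, kd, ku, kv, st, en, ka, Pi.smul_apply, th, smul_eq_mul, mul_one, FH]
      push_cast
      rfl
    simp_rw [h1]
    simp_rw [← Finset.mul_sum]
    congr 1
    have h2 : ∀ i : Fin N, ∑ j : Fin (N - 1), FH s y i (j + 1) =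
        (fun i : ℕ => ∑ j ∈ Finset.range N, FH s y i j - Real.cos s) i := by
      intro i
      rw [Fin.sum_univ_eq_sum_range (fun j => FH s y i (j + 1)) (N - 1),
        sum_low hN (fun j => FH s y i j), hH0]
    simp_rw [h2]
    rw [Fin.sum_univ_eq_sum_range (fun i : ℕ => ∑ j ∈ Finset.range N, FH s y i j - Real.cos s) N,
      Finset.sum_sub_distrib]
    simp
  have e3 : ∑ x : Fin N, ∑ x_1 : Fin N, kJ b c (Sum.inr (Sum.inl (x, x_1)) : KB N) *
      cosT (kd y (Sum.inr (Sum.inl (x, x_1)) : KB N) +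
        ((ka (s • th) (Sum.inr (Sum.inl (x, x_1)) : KB N) : ℝ) : T)) =
      c * ∑ i ∈ Finset.range N, ∑ j ∈ Finset.range N, FH s y i j := by
    have h1 : ∀ (i : Fin N) (j : Fin N), kJ b c (Sum.inr (Sum.inl (i, j)) : KB N) *
      cosT (kd y (Sum.inr (Sum.inl (i, j)) : KB N) +
        ((ka (s • th) (Sum.inr (Sum.inl (i, j)) : KB N) : ℝ) : T)) = c * FH s y i j := by
      intro i j
      simp only [kJ, kd, ku, kv, ka, Pi.smul_apply, th, smul_eq_mul, mul_one, FH]
    simp_rw [h1]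
    simp_rw [← Finset.mul_sum]
    congr 1
    have h2 : ∀ i : Fin N, ∑ j : Fin N, FH s y i j =
        (fun i : ℕ => ∑ j ∈ Finset.range N, FH s y i j) i := by
      intro i
      exact Fin.sum_univ_eq_sum_range (fun j => FH s y i j) N
    simp_rw [h2]
    exact Fin.sum_univ_eq_sum_range (fun i : ℕ => ∑ j ∈ Finset.range N, FH s y i j) N
  have e4 : ∑ x : Fin N, ∑ x_1 : Fin N, kJ b c (Sum.inr (Sum.inr (x, x_1)) : KB N) *
      cosT (kd y (Sum.inr (Sum.inr (x, x_1)) : KB N) +
        ((ka (s • th) (Sum.inr (Sum.inr (x, x_1)) : KB N) : ℝ) : T)) =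
      c * ∑ i ∈ Finset.range N, ∑ j ∈ Finset.range N, FV y (i + 1) j := by
    have h1 : ∀ (i : Fin N) (j : Fin N), kJ b c (Sum.inr (Sum.inr (i, j)) : KB N) *
      cosT (kd y (Sum.inr (Sum.inr (i, j)) : KB N) +
        ((ka (s • th) (Sum.inr (Sum.inr (i, j)) : KB N) : ℝ) : T)) = c * FV y (i + 1) j := by
      intro i j
      simp only [kJ, kd, ku, kv, ka, AddCircle.coe_zero, add_zero, FV]
      push_cast
      rfl
    simp_rw [h1]
    simp_rw [← Finset.mul_sum]
    congr 1
    have h2 : ∀ i : Fin N, ∑ j : Fin N, FV y (i + 1) j =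
        (fun i : ℕ => ∑ j ∈ Finset.range N, FV y (i + 1) j) i := by
      intro i
      exact Fin.sum_univ_eq_sum_range (fun j => FV y (i + 1) j) N
    simp_rw [h2]
    exact Fin.sum_univ_eq_sum_range (fun i : ℕ => ∑ j ∈ Finset.range N, FV y (i + 1) j) N
  rw [e1, e2, e3, e4]
  ring

theorem energy_bl {N : ℕ} (b s : ℝ) {y : Ginf}
    (hy : ∀ z, z ∉ inner N → y z = 0) :
    ∑ e : BI N, b / 2 * cosT (y (bu e) - y (bv e) + (((s • hh) e : ℝ) : T)) =
      b * (∑ i ∈ Finset.range N, ∑ j ∈ Finset.range N, FH s y i j +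
        ∑ i ∈ Finset.range N, ∑ j ∈ Finset.range N, FV y (i + 1) j) := by
  have hV : ∀ j : ℕ, FV y 0 j = FV y N j := by
    intro j
    unfold FV
    rw [off_inner hy (by left; simp), off_inner hy (by left; simp),
      off_inner hy (by right; left; simp), off_inner hy (by right; left; simp)]
  have hH : ∀ i : ℕ, FH s y i 0 = FH s y i N := by
    intro i
    unfold FH
    rw [off_inner hy (by right; right; left; simp), off_inner hy (by right; right; left; simp),
      off_inner hy (by right; right; right; simp), off_inner hy (by right; right; right; simp)]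
  rw [sum_BI]
  have h1 : ∀ (i j : Fin N),
      (b / 2 * cosT (y (bu ((i, j), (false, false))) - y (bv ((i, j), (false, false))) +
        (((s • hh) ((i, j), (false, false)) : ℝ) : T)) +
      b / 2 * cosT (y (bu ((i, j), (false, true))) - y (bv ((i, j), (false, true))) +
        (((s • hh) ((i, j), (false, true)) : ℝ) : T)) +
      b / 2 * cosT (y (bu ((i, j), (true, false))) - y (bv ((i, j), (true, false))) +
        (((s • hh) ((i, j), (true, false)) : ℝ) : T)) +
      b / 2 * cosT (y (bu ((i, j), (true, true))) - y (bv ((i, j), (true, true))) +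
        (((s • hh) ((i, j), (true, true)) : ℝ) : T))) =
      b / 2 * (FH s y i j + FH s y i (j + 1) + FV y i j + FV y (i + 1) j) := by
    intro i j
    simp only [bu, bv, hh, Pi.smul_apply, smul_eq_mul, FH, FV, Bool.false_eq_true, ↓reduceIte,
      Bool.and_self, add_zero, Bool.not_false, Bool.and_false, Prod.mk_add_mk, Bool.and_true,
      Bool.not_true, mul_one, mul_zero, AddCircle.coe_zero]
    push_cast
    ring
  simp_rw [h1]
  simp_rw [← Finset.mul_sum]
  have h2 : ∀ i : Fin N, ∑ j : Fin N,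
      (FH s y i j + FH s y i (j + 1) + FV y i j + FV y (i + 1) j) =
      (fun i : ℕ => 2 * (∑ j ∈ Finset.range N, FH s y i j) +
        ∑ j ∈ Finset.range N, FV y i j + ∑ j ∈ Finset.range N, FV y (i + 1) j) i := by
    intro i
    rw [Fin.sum_univ_eq_sum_range (fun j : ℕ =>
      FH s y i j + FH s y i (j + 1) + FV y i j + FV y (i + 1) j) N,
      Finset.sum_add_distrib, Finset.sum_add_distrib, Finset.sum_add_distrib,
      sum_cyc (fun j => FH s y i j) (hH i)]
    ring
  simp_rw [h2]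
  rw [Fin.sum_univ_eq_sum_range (fun i : ℕ => 2 * (∑ j ∈ Finset.range N, FH s y i j) +
        ∑ j ∈ Finset.range N, FV y i j + ∑ j ∈ Finset.range N, FV y (i + 1) j) N,
    Finset.sum_add_distrib, Finset.sum_add_distrib, ← Finset.mul_sum,
    sum_cyc (fun i => ∑ j ∈ Finset.range N, FV y i j)]
  · ring
  · exact Finset.sum_congr rfl fun j _ => hV j

theorem proj_off {N : ℕ} (x : Ginf) (z : ℤ × ℤ) (hz : z ∉ inner N) :
    proj (inner N : Set (ℤ × ℤ)) x z = 0 :=
  proj_of_notMem (by simpa using hz) x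

theorem Zr_id {N : ℕ} (hN : 1 ≤ N) (b c s : ℝ) :
    Zr muInf (fun _ => (b + c) / 2) (chi0 N) (s • hh) =
      Real.exp (b * N * Real.cos s + b * N) * Zr muInf (kJ b c) (kchi N) (ka (s • th)) := by
  unfold Zr
  rw [← integral_const_mul]
  congr 1
  funext x
  have h1 := energy_id hN b c s (proj_off x)
  have h2 := energy_bl (N := N) (b + c) s (proj_off x)
  have e1 : ∑ e : BI N, (b + c) / 2 * ((chi0 N e).c x * Real.cos ((s • hh) e) -
      (chi0 N e).s x * Real.sin ((s • hh) e)) =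
      ∑ e : BI N, (b + c) / 2 * cosT (proj (inner N : Set (ℤ × ℤ)) x (bu e) -
        proj (inner N : Set (ℤ × ℤ)) x (bv e) + (((s • hh) e : ℝ) : T)) := by
    refine Finset.sum_congr rfl fun e _ => ?_
    rw [cosT_add, cosT_coe, sinT_coe]
    rfl
  have e2 : ∑ e : KB N, kJ b c e * ((kchi N e).c x * Real.cos (ka (s • th) e) -
      (kchi N e).s x * Real.sin (ka (s • th) e)) =
      ∑ e : KB N, kJ b c e * cosT (kd (proj (inner N : Set (ℤ × ℤ)) x) e +
        ((ka (s • th) e : ℝ) : T)) := by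
    refine Finset.sum_congr rfl fun e _ => ?_
    rw [cosT_add, cosT_coe, sinT_coe]
    rfl
  rw [e1, e2, h1, h2, ← Real.exp_add]
  congr 1
  ring

/-- splitting decreases the stiffness -/
theorem ZT_horiz {N : ℕ} (hN : 1 ≤ N) {b c : ℝ} (hb : 0 ≤ b) (hc : 0 ≤ c) (s : ℝ) :
    ZT N b c 0 * Real.exp (-(s ^ 2 * (N : ℝ) ^ 2 * stiff N (b + c)) / 2) ≤
      ZT N b c (s • th) := by
  have h1 := ZT_split hb hc (s • th : Ed N → ℝ)
  have hJ : ∀ e : BI N, 0 ≤ (fun _ : BI N => (b + c) / 2) e := fun _ => by positivity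
  have h2 := lowerZ muInf (fun _ => (b + c) / 2) (chi0 N) pi_div2 hJ (s • hh)
  rw [QQ_smul2, Q0_h N (b + c) hN] at h2
  have hid := Zr_id hN b c s
  have hid0 := Zr_id hN b c 0
  have k0 : (ka ((0 : ℝ) • th) : KB N → ℝ) = 0 := by
    funext e
    rcases e with e | e | e <;> simp [ka]
  rw [zero_smul, k0, Real.cos_zero] at hid0
  rw [hid, hid0] at h2
  have z0 := Zr_pos muInf (kJ b c) (kchi N) 0
  have z1 := Zr_pos muInf (kJ b c) (kchi N) (ka (s • th))
  have p0 := ZT_pos (N := N) b c 0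
  rw [le_div_iff₀ (mul_pos (Real.exp_pos _) z0)] at h2
  have h3 : Real.exp (b * N * Real.cos s + b * N) ≤ Real.exp (b * N * 1 + b * N) := by
    rw [Real.exp_le_exp]
    have := mul_le_mul_of_nonneg_left (Real.cos_le_one s) (by positivity : 0 ≤ b * N)
    linarith only [this]
  have h4 : Real.exp (-(s ^ 2 * ((N : ℝ) ^ 2 * stiff N (b + c))) / 2) *
      Zr muInf (kJ b c) (kchi N) 0 ≤ Zr muInf (kJ b c) (kchi N) (ka (s • th)) := by
    have h5 := mul_le_mul_of_nonneg_right h3 z1.le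
    have h6 : Real.exp (b * N * 1 + b * N) *
        (Real.exp (-(s ^ 2 * ((N : ℝ) ^ 2 * stiff N (b + c))) / 2) *
          Zr muInf (kJ b c) (kchi N) 0) ≤
        Real.exp (b * N * 1 + b * N) * Zr muInf (kJ b c) (kchi N) (ka (s • th)) := by
      linarith only [h2, h5]
    exact le_of_mul_le_mul_left h6 (Real.exp_pos _)
  have e7 : s ^ 2 * (N : ℝ) ^ 2 * stiff N (b + c) = s ^ 2 * ((N : ℝ) ^ 2 * stiff N (b + c)) := by
    ring
  rw [e7]
  have h8 := mul_le_mul_of_nonneg_right h4 p0.le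
  have h9 : Zr muInf (kJ b c) (kchi N) 0 *
      (ZT N b c 0 * Real.exp (-(s ^ 2 * ((N : ℝ) ^ 2 * stiff N (b + c))) / 2)) ≤
      Zr muInf (kJ b c) (kchi N) 0 * ZT N b c (s • th) := by
    linarith only [h1, h8]
  exact le_of_mul_le_mul_left h9 z0

end Vale.Agent.P159.H261
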