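import Vale.Agent.P159.H261.Horiz
import Vale.Agent.P159.H353.Mom
import Vale.Agent.P159.H353.Wgt
import Vale.Agent.P159.H353.Avg
import Vale.Agent.P159.H170.NoGo
import Vale.Agent.P159.H873.Main

/-!
Existence of a massless phase.
-/

open MeasureTheory Filter Topology
open scoped BigOperators

namespace Vale.Agent.P159.H261

open Vale.Agent.P159 Vale.Agent.P159.UJ Vale.Agent.P159.H353
open Vale.Agent.P159.H170 (WOK Wt v0 aL aR aT aB tsum_rf sum_aT sum_aB rf rough_flat_false)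

theorem Wt_eq {N : ℕ} (b c : ℝ) (h : Fc N → ℤ) : Wt lf rt (wt b c) h = Wh b c h := rfl

/-- first flow -/
def FlowA : Prop := ∀ (N : ℕ), 0 < N → ∀ h : Fc N → ℤ,
  ∑ e, (1 / (N : ℝ) * th e) * (cur h e : ℝ) =
    ∑ x, aT N x * (h x : ℝ) - ∑ x, aB N x * (h x : ℝ)

/-- second flow -/
def FlowB (b c C' : ℝ) : Prop := ∀ (N : ℕ) (hN : 0 < N), ∃ t : Ed N → ℝ,
  (∀ h : Fc N → ℤ, ∑ e, t e * (cur h e : ℝ) = ∑ x, aL N x * (h x : ℝ) - h (v0 N hN)) ∧
  ∑ e, cpl b c e * t e ^ 2 ≤ C' * N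

theorem wok {N : ℕ} {b c : ℝ} (hb : 0 ≤ b) (hc : 0 ≤ c) : WOK (wt (N := N) b c) where
  nn := fun e n => wt_nonneg hb e n
  ev := fun e n => wt_even b c e n
  mono := fun e _ _ h => wt_anti hb hc e h

theorem hsum_ok {N : ℕ} (hN : 0 < N) {b c : ℝ} (hb : 0 ≤ b) (hc : 0 ≤ c) :
    Summable fun h : H170.Ht (Fc N) (v0 N hN) => Wt lf rt (wt b c) h.1 * H170.qq h.1 := by
  have h1 := summable_Wh hb hc (v0 N hN)
  have h2 : ∀ x, Summable fun h : H353.Ht N (v0 N hN) => Wh b c h.1 * (h.1 x : ℝ) ^ 2 :=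
    fun x => summable_height_sq hb hc (v0 N hN) (fun t => ZT_gauss hb hc t) x
  have h3 := h1.add (summable_sum (s := Finset.univ) fun x _ => h2 x)
  refine h3.congr fun h => ?_
  unfold H170.qq
  rw [Wt_eq, mul_add, mul_one, Finset.mul_sum]

theorem tsum_W {N : ℕ} (hN : 0 < N) {b c : ℝ} (hb : 0 ≤ b) (hc : 0 ≤ c) :
    ∑' h : H170.Ht (Fc N) (v0 N hN), Wt lf rt (wt b c) h.1 = ZT N b c 0 :=
  (hasSum_Wh hb hc (v0 N hN)).tsum_eq

/-- if the mass is positive at `b + c` then the heights of the triangulated block are both rough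
and flat -/
theorem no_mass {b c C' : ℝ} (hb : 0 < b) (hc : 0 < c) (hbw : wI b 0 ≤ 2 * wI b 1)
    (hcw : wI c 0 ^ 2 ≤ 2 * wI c 1 ^ 2) (hA : FlowA) (hB : FlowB b c C') {C : ℝ}
    (hC : ∀ l : ℕ, 1 ≤ l → stiff l (b + c) ≤ C / l) : False := by
  refine rough_flat_false b c C C' (fun N => wok hb.le hc.le) hbw hcw
    (fun N hN => hsum_ok hN hb.le hc.le) (fun N hN => ?_) (fun N hN => ?_) (fun N hN => ?_)
  · -- positivity of the characteristic function
    obtain ⟨t, ht, -⟩ := hB N hN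
    have h1 := ZT_heights hb.le hc.le (v0 N hN) (fun e => 2 * Real.pi * t e)
    have h2 := h1.tsum_eq
    have h3 : ∀ h : H353.Ht N (v0 N hN), Wh b c h.1 * Real.cos (∑ e, 2 * Real.pi * t e *
        (cur h.1 e : ℝ)) = Wt lf rt (wt b c) h.1 *
        Real.cos (2 * Real.pi * ∑ x, aL N x * (h.1 x : ℝ)) := by
      intro h
      rw [Wt_eq]
      congr 2
      have h4 := ht h.1
      rw [h.2, Int.cast_zero, sub_zero] at h4
      rw [← h4, Finset.mul_sum]
      exact Finset.sum_congr rfl fun e _ => by ring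
    rw [tsum_congr h3] at h2
    have h5 := ZT_pos (N := N) b c (fun e => 2 * Real.pi * t e)
    rw [← h2] at h5
    exact h5
  · obtain ⟨t, ht, htC⟩ := hB N hN
    have h1 := (second_moment_gauss hb.le hc.le (v0 N hN) (fun t => ZT_gauss hb.le hc.le t) t).2
    rw [tsum_W hN hb.le hc.le]
    have h3 : ∀ h : H353.Ht N (v0 N hN), Wh b c h.1 * (∑ e, t e * (cur h.1 e : ℝ)) ^ 2 =
        Wt lf rt (wt b c) h.1 * (∑ x, aL N x * (h.1 x : ℝ)) ^ 2 := by
      intro h
      rw [Wt_eq, ht h.1, h.2, Int.cast_zero, sub_zero]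
    rw [tsum_congr h3] at h1
    exact h1.trans (mul_le_mul_of_nonneg_right htC (ZT_pos b c 0).le)
  · rw [tsum_W hN hb.le hc.le]
    have hN1 : 1 ≤ N := hN
    have hN0 : (0 : ℝ) < N := by exact_mod_cast hN
    have hK : ∀ s : ℝ, 0 < s → s ≤ 1 →
        ZT N b c 0 * (1 - stiff N (b + c) * s ^ 2 / 2) ≤
          ZT N b c (fun e => s * (1 / (N : ℝ) * th e)) := by
      intro s _ _
      have h1 := ZT_horiz hN1 hb.le hc.le (s / N)
      have e1 : ((s / N) • th : Ed N → ℝ) = fun e => s * (1 / (N : ℝ) * th e) := by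
        funext e
        simp only [Pi.smul_apply, smul_eq_mul]
        ring
      rw [e1] at h1
      refine le_trans (mul_le_mul_of_nonneg_left ?_ (ZT_pos b c 0).le) h1
      have e2 : -((s / N) ^ 2 * (N : ℝ) ^ 2 * stiff N (b + c)) / 2 =
          -(stiff N (b + c) * s ^ 2 / 2) := by
        field_simp
      rw [e2]
      have := Real.add_one_le_exp (-(stiff N (b + c) * s ^ 2 / 2))
      linarith only [this]
    have h1 := (second_moment hb.le hc.le (v0 N hN) (fun e => 1 / (N : ℝ) * th e)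
      (stiff N (b + c)) hK).2
    have h3 : ∀ h : H353.Ht N (v0 N hN), Wh b c h.1 *
        (∑ e, (1 / (N : ℝ) * th e) * (cur h.1 e : ℝ)) ^ 2 =
        Wt lf rt (wt b c) h.1 * (fun k : Fc N → ℤ => (∑ x, aT N x * (k x : ℝ) -
          ∑ x, aB N x * (k x : ℝ)) ^ 2) h.1 := by
      intro h
      rw [Wt_eq, hA N hN h.1]
    rw [tsum_congr h3, ← tsum_rf b c (fun k : Fc N → ℤ => (∑ x, aT N x * (k x : ℝ) -
          ∑ x, aB N x * (k x : ℝ)) ^ 2)] at h1
    have h4 : ∀ h : H353.Ht N (v0 N hN), Wt lf rt (wt b c) h.1 *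
        (fun k : Fc N → ℤ => (∑ x, aT N x * (k x : ℝ) -
          ∑ x, aB N x * (k x : ℝ)) ^ 2) (fun x => h.1 (rf x)) =
        Wt lf rt (wt b c) h.1 * (∑ x, aL N x * (h.1 x : ℝ) -
          ∑ x, aR N x * (h.1 x : ℝ)) ^ 2 := by
      intro h
      simp only
      rw [sum_aT, sum_aB]
      simp only [H170.rf_rf]
    rw [tsum_congr h4] at h1
    exact h1.trans (mul_le_mul_of_nonneg_right (hC N hN1) (ZT_pos b c 0).le)

/-- massless phase -/
theorem massless_of {b c C' : ℝ} (hb : 0 < b) (hc : 0 < c) (hbw : wI b 0 ≤ 2 * wI b 1)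
    (hcw : wI c 0 ^ 2 ≤ 2 * wI c 1 ^ 2) (hA : FlowA) (hB : FlowB b c C') :
    mass (b + c) = 0 := by
  have hbc : 0 < b + c := by positivity
  have h0 := (H873.old.1 (b + c) hbc).2.2
  rcases h0.eq_or_lt with h | h
  · exact h.symm
  · obtain ⟨-, C, hC⟩ := (H873.old.2.1 (b + c) hbc).2 h
    exact (no_mass hb hc hbw hcw hA hB hC).elim

theorem aL_al {N : ℕ} (x : Fc N) : aL N x = al x := rfl

theorem aT_al' {N : ℕ} (x : Fc N) : aT N x = al' x := by
  unfold aT al'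
  have h := x.2.1.2
  have e : (x.2.1 : ℕ) + 1 = N ↔ x.2.1.1 = N - 1 := by omega
  simp only [e]

theorem aB_be' {N : ℕ} (x : Fc N) : aB N x = be' x := rfl

theorem th_tH {N : ℕ} (e : Ed N) : th e = tH e := by
  rcases e with p | p | p <;> rfl

theorem flowA : FlowA := by
  intro N hN h
  obtain ⟨M, rfl⟩ : ∃ M, N = M + 1 := ⟨N - 1, by omega⟩
  simp only [aT_al', aB_be', th_tH]
  rw [al'_be'_cur M h]
  push_cast
  rfl

theorem flowB {b c : ℝ} (hb : 0 ≤ b) (hc : 0 ≤ c) : FlowB b c (4 * (b + c)) := by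
  intro N hN
  obtain ⟨M, rfl⟩ : ∃ M, N = M + 1 := ⟨N - 1, by omega⟩
  refine ⟨tP, fun h => ?_, ?_⟩
  · rw [← al_cur M h]
    rfl
  · have := sum_cpl_tP M hb hc
    push_cast
    exact this

/-- **Existence of the massless phase** of the square-lattice XY model. -/
theorem mass_seven_halves : mass (7 / 2) = 0 := by
  have h := massless_of (b := 5 / 4) (c := 9 / 4) (by norm_num) (by norm_num) side_half diag_half
    flowA (flowB (by norm_num) (by norm_num))
  have e : (5 / 4 : ℝ) + 9 / 4 = 7 / 2 := by norm_num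
  rwa [e] at h

end Vale.Agent.P159.H261
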