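import Vale.Agent.P159.Bdl.B5

/-!
Splitting vertices decreases the stiffness: abstract form, a consequence of the real four replica
inequality.
-/

open MeasureTheory Filter Topology
open scoped BigOperators

namespace Vale.Agent.P159.H261

open Vale.Agent.P159 Vale.Agent.P159.UJ

section Abstract

variable {G : Type*} [AddCommGroup G] [TopologicalSpace G] [IsTopologicalAddGroup G]
  [CompactSpace G] [SecondCountableTopology G] [MeasurableSpace G] [BorelSpace G]
  (μ : Measure G) [μ.IsAddHaarMeasure] [IsProbabilityMeasure μ]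
  {κ : Type*} [Fintype κ] (J : κ → ℝ) (χ : κ → Chr G)

/-- the integrand of `ZA` -/
noncomputable def WA (a : κ → T) (x : G) : ℝ := Real.exp (∑ e, J e *
      ((χ e).c x * cosT (a e) - (χ e).s x * sinT (a e)))

/-- partition function with angles added to the bonds -/
noncomputable def ZA (a : κ → T) : ℝ := ∫ x, WA J χ a x ∂μ

omit [IsTopologicalAddGroup G] [CompactSpace G] [SecondCountableTopology G] [MeasurableSpace G]
  [BorelSpace G] in
theorem WA_cont2 : Continuous (Function.uncurry (WA J χ)) := by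
  unfold WA
  refine Real.continuous_exp.comp (continuous_finsetSum _ fun e _ => continuous_const.mul ?_)
  have h1 : Continuous (fun p : (κ → T) × G => p.1 e) := (continuous_apply e).comp continuous_fst
  exact (((χ e).cont_c.comp continuous_snd).mul (cont_cos.comp h1)).sub
    (((χ e).cont_s.comp continuous_snd).mul (cont_sin.comp h1))

theorem ZA_cont : Continuous (ZA μ J χ) := by
  have h1 := continuous_parametric_integral_of_continuous (μ := μ) (WA_cont2 J χ)
    (isCompact_univ (X := G))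
  have h2 : ZA μ J χ = fun a => ∫ x, WA J χ a x ∂μ := rfl
  rw [h2]
  simpa using h1

theorem ZA_coe (t : κ → ℝ) : ZA μ J χ (fun e => ((t e : ℝ) : T)) = Zr μ J χ t := by
  unfold ZA Zr WA
  simp only [cosT_coe, sinT_coe]

theorem exists_rep (a : κ → T) : ∃ t : κ → ℝ, (fun e => ((t e : ℝ) : T)) = a := by
  have : ∀ e, ∃ t : ℝ, ((t : ℝ) : T) = a e := fun e => QuotientAddGroup.mk_surjective _
  choose t ht using this
  exact ⟨t, funext ht⟩

theorem ZA_pos (a : κ → T) : 0 < ZA μ J χ a := by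
  obtain ⟨t, rfl⟩ := exists_rep a
  rw [ZA_coe]
  exact Zr_pos μ J χ t

variable (h2 : ∀ g : G, ∃ h : G, h + h = g)

include h2 in
theorem ZA_four (hJ : ∀ e, 0 ≤ J e) (a b : κ → T) :
    ZA μ J χ a ^ 2 * ZA μ J χ b ^ 2 ≤ ZA μ J χ (a + b) * ZA μ J χ (a - b) * ZA μ J χ 0 ^ 2 := by
  obtain ⟨t, rfl⟩ := exists_rep a
  obtain ⟨s, rfl⟩ := exists_rep b
  have e1 : ((fun e => ((t e : ℝ) : T)) + fun e => ((s e : ℝ) : T)) =
      fun e => (((t + s) e : ℝ) : T) := by
    funext e; simp
  have e2 : ((fun e => ((t e : ℝ) : T)) - fun e => ((s e : ℝ) : T)) =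
      fun e => (((t - s) e : ℝ) : T) := by
    funext e; simp
  have e3 : (0 : κ → T) = fun e => (((0 : κ → ℝ) e : ℝ) : T) := by
    funext e; simp
  rw [e1, e2, e3, ZA_coe, ZA_coe, ZA_coe, ZA_coe, ZA_coe]
  exact four μ J χ h2 hJ t s

include h2 in
/-- the pointwise form of the splitting inequality -/
theorem ZA_avg (hJ : ∀ e, 0 ≤ J e) (a b : κ → T) :
    2 * (ZA μ J χ a * ZA μ J χ b) ≤ (ZA μ J χ (a + b) + ZA μ J χ (a - b)) * ZA μ J χ 0 := by
  have h := ZA_four μ J χ h2 hJ a b
  have p0 := ZA_pos μ J χ 0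
  have p1 := ZA_pos μ J χ a
  have p2 := ZA_pos μ J χ b
  have p3 := ZA_pos μ J χ (a + b)
  have p4 := ZA_pos μ J χ (a - b)
  have h5 : (2 * (ZA μ J χ a * ZA μ J χ b)) ^ 2 ≤
      ((ZA μ J χ (a + b) + ZA μ J χ (a - b)) * ZA μ J χ 0) ^ 2 := by
    have h6 : 4 * (ZA μ J χ (a + b) * ZA μ J χ (a - b)) ≤
        (ZA μ J χ (a + b) + ZA μ J χ (a - b)) ^ 2 := by
      nlinarith [sq_nonneg (ZA μ J χ (a + b) - ZA μ J χ (a - b))]
    have h7 := mul_le_mul_of_nonneg_right h6 (sq_nonneg (ZA μ J χ 0))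
    nlinarith only [h, h7]
  exact le_of_sq_le_sq h5 (by positivity)

/-- averages over a further compact group acting on the bonds -/
theorem ZA_split {K : Type*} [AddCommGroup K] [TopologicalSpace K] [IsTopologicalAddGroup K]
    [CompactSpace K] [SecondCountableTopology K] [MeasurableSpace K] [BorelSpace K]
    (ν : Measure K) [ν.IsAddHaarMeasure] [IsProbabilityMeasure ν]
    (h2 : ∀ g : G, ∃ h : G, h + h = g) (hJ : ∀ e, 0 ≤ J e)
    (L : K →+ (κ → T)) (hL : Continuous L) (a : κ → T) :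
    ZA μ J χ a * ∫ z, ZA μ J χ (L z) ∂ν ≤ ZA μ J χ 0 * ∫ z, ZA μ J χ (a + L z) ∂ν := by
  have c1 : Continuous fun z : K => ZA μ J χ (L z) := (ZA_cont μ J χ).comp hL
  have c2 : Continuous fun z : K => ZA μ J χ (a + L z) :=
    (ZA_cont μ J χ).comp (continuous_const.add hL)
  have c3 : Continuous fun z : K => ZA μ J χ (a - L z) :=
    (ZA_cont μ J χ).comp (continuous_const.sub hL)
  have e1 : ∫ z, ZA μ J χ (a - L z) ∂ν = ∫ z, ZA μ J χ (a + L z) ∂ν := by
    rw [← integral_neg_eq_self (fun z => ZA μ J χ (a + L z)) ν]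
    congr 1
    funext z
    rw [map_neg, sub_eq_add_neg]
  have e2 : ∫ z, 2 * (ZA μ J χ a * ZA μ J χ (L z)) ∂ν ≤
      ∫ z, (ZA μ J χ (a + L z) + ZA μ J χ (a - L z)) * ZA μ J χ 0 ∂ν :=
    integral_mono (cint (continuous_const.mul (continuous_const.mul c1)))
      (cint ((c2.add c3).mul continuous_const)) fun z => ZA_avg μ J χ h2 hJ a (L z)
  rw [integral_const_mul, integral_const_mul, integral_mul_const,
    integral_add (cint c2) (cint c3), e1] at e2
  linarith only [e2]

end Abstract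

end Vale.Agent.P159.H261
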