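import Vale.Agent.P159.H261.Split
import Vale.Agent.P159.H353.TriDefs

/-!
Splitting one vertex of every unit square: comparison of the twisted partition functions of the
triangulated block and of the square block.
-/

open MeasureTheory Filter Topology
open scoped BigOperators

namespace Vale.Agent.P159.H261

open Vale.Agent.P159 Vale.Agent.P159.UJ Vale.Agent.P159.H353

/-- the sides -/
abbrev VH (N : ℕ) : Type := (Fin (N - 1) × Fin N) ⊕ (Fin N × Fin (N - 1))

/-- the unit squares -/
abbrev Sq (N : ℕ) : Type := Fin N × Fin N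

/-- the bonds after identification of the split vertices: the sides, and for every unit square
its bottom and its right side -/
abbrev KB (N : ℕ) : Type := VH N ⊕ (Sq N ⊕ Sq N)

/-- first end point -/
def ku {N : ℕ} : KB N → ℤ × ℤ
  | Sum.inl e => st (Sum.inr e : Ed N)
  | Sum.inr (Sum.inl s) => ((s.1.1 : ℤ), (s.2.1 : ℤ))
  | Sum.inr (Sum.inr s) => ((s.1.1 : ℤ) + 1, (s.2.1 : ℤ))

/-- second end point -/
def kv {N : ℕ} : KB N → ℤ × ℤ
  | Sum.inl e => en (Sum.inr e : Ed N)
  | Sum.inr (Sum.inl s) => ((s.1.1 : ℤ) + 1, (s.2.1 : ℤ))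
  | Sum.inr (Sum.inr s) => ((s.1.1 : ℤ) + 1, (s.2.1 : ℤ) + 1)

/-- couplings -/
def kJ {N : ℕ} (b c : ℝ) : KB N → ℝ
  | Sum.inl _ => b
  | Sum.inr _ => c

theorem kJ_nonneg {N : ℕ} {b c : ℝ} (hb : 0 ≤ b) (hc : 0 ≤ c) (e : KB N) : 0 ≤ kJ b c e := by
  rcases e with e | e
  · exact hb
  · exact hc

/-- characters -/
noncomputable def kchi (N : ℕ) (e : KB N) : Chr Ginf :=
  (grad (ku e) (kv e)).comp (proj (inner N : Set (ℤ × ℤ))) (proj_cont _)

/-- the twist carried by the identified model -/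
noncomputable def ka {N : ℕ} (t : Ed N → ℝ) : KB N → ℝ
  | Sum.inl e => t (Sum.inr e)
  | Sum.inr (Sum.inl s) => t (Sum.inl s)
  | Sum.inr (Sum.inr _) => 0

/-- the angles of the split vertices -/
noncomputable def kL (N : ℕ) : (Sq N → T) →+ (KB N → T) where
  toFun z := fun e => match e with
    | Sum.inl _ => 0
    | Sum.inr (Sum.inl s) => - z s
    | Sum.inr (Sum.inr s) => z s
  map_zero' := by
    funext e
    rcases e with e | e | e <;> simp
  map_add' x y := by
    funext e
    rcases e with e | e | e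
    · simp
    · simp only [Pi.add_apply]; abel
    · simp

theorem kL_cont (N : ℕ) : Continuous (kL N) := by
  refine continuous_pi fun e => ?_
  rcases e with e | e | e
  · exact continuous_const
  · exact (continuous_apply e).neg
  · exact continuous_apply e

/-- the spin difference along a bond of the identified model -/
noncomputable def kd {N : ℕ} (y : Ginf) (e : KB N) : T := y (ku e) - y (kv e)

theorem kd_cont {N : ℕ} (e : KB N) : Continuous fun y : Ginf => kd y e :=
  (continuous_apply _).sub (continuous_apply _)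

theorem sum_KB {N : ℕ} (f : KB N → ℝ) : ∑ e, f e = ∑ e : VH N, f (Sum.inl e) +
    (∑ s : Sq N, f (Sum.inr (Sum.inl s)) + ∑ s : Sq N, f (Sum.inr (Sum.inr s))) := by
  rw [Fintype.sum_sum_type]
  congr 1
  rw [Fintype.sum_sum_type]

theorem sum_Ed {N : ℕ} (f : Ed N → ℝ) : ∑ e, f e = ∑ s : Sq N, f (Sum.inl s) +
    ∑ e : VH N, f (Sum.inr e) := by
  rw [Fintype.sum_sum_type]

theorem prod_Ed {N : ℕ} (f : Ed N → ℝ) : ∏ e, f e = (∏ s : Sq N, f (Sum.inl s)) *
    ∏ e : VH N, f (Sum.inr e) := by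
  rw [Fintype.prod_sum_type]

/-- the integrand of the identified model -/
noncomputable def kW {N : ℕ} (b c : ℝ) (a : KB N → T) (y : Ginf) : ℝ :=
  Real.exp (∑ e, kJ b c e * cosT (kd y e + a e))

theorem kW_cont {N : ℕ} (b c : ℝ) (a : KB N → T) : Continuous (kW b c a) := by
  unfold kW
  refine Real.continuous_exp.comp (continuous_finsetSum _ fun e _ => continuous_const.mul ?_)
  exact cont_cos.comp ((kd_cont e).add continuous_const)

theorem kW_cont2 {N : ℕ} (b c : ℝ) : Continuous fun p : (KB N → T) × Ginf => kW b c p.1 p.2 := by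
  unfold kW
  refine Real.continuous_exp.comp (continuous_finsetSum _ fun e _ => continuous_const.mul ?_)
  exact cont_cos.comp (((kd_cont e).comp continuous_snd).add
    ((continuous_apply e).comp continuous_fst))

theorem cosT_add (x y : T) : cosT (x + y) = cosT x * cosT y - sinT x * sinT y :=
  Real.Angle.cos_add x y

theorem WA_kW {N : ℕ} (b c : ℝ) (a : KB N → T) (x : Ginf) :
    WA (kJ b c) (kchi N) a x = kW b c a (proj (inner N : Set (ℤ × ℤ)) x) := by
  unfold WA kW
  congr 1
  refine Finset.sum_congr rfl fun e _ => ?_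
  rw [cosT_add]
  rfl

theorem ZA_kW {N : ℕ} (b c : ℝ) (a : KB N → T) :
    ZA muInf (kJ b c) (kchi N) a = ∫ θ : inner N → T, kW b c a (ext θ) ∂torusHaar (inner N) := by
  unfold ZA
  rw [integral_ext (inner N) (kW_cont b c a)]
  congr 1
  funext x
  exact WA_kW b c a x

instance : (AddCircle.haarAddCircle (T := 2 * Real.pi)).IsAddHaarMeasure := inferInstance

/-- integration over one split vertex -/
theorem int_gD (c : ℝ) (p q : T) :
    ∫ z : T, Real.exp (c * cosT (p - z)) * Real.exp (c * cosT (q + z)) ∂AddCircle.haarAddCircle =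
      gD c (p + q) := by
  unfold gD
  have h := integral_add_right_eq_self (μ := (AddCircle.haarAddCircle : Measure T))
    (fun z : T => Real.exp (c * cosT z) * Real.exp (c * cosT (p + q - z))) q
  rw [← h]
  congr 1
  funext z
  have e1 : p + q - (z + q) = p - z := by abel
  rw [e1, mul_comm, add_comm q z]

theorem kW_factor {N : ℕ} (b c : ℝ) (t : Ed N → ℝ) (y : Ginf) (z : Sq N → T) :
    kW b c ((fun e => ((ka t e : ℝ) : T)) + kL N z) y =
      (∏ e : VH N, gS b (kd y (Sum.inl e : KB N) + ((t (Sum.inr e) : ℝ) : T))) *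
      ∏ s : Sq N, (Real.exp (c * cosT ((kd y (Sum.inr (Sum.inl s) : KB N) +
        ((t (Sum.inl s) : ℝ) : T)) - z s)) *
        Real.exp (c * cosT (kd y (Sum.inr (Sum.inr s) : KB N) + z s))) := by
  unfold kW
  rw [sum_KB, Real.exp_add, Real.exp_add, Real.exp_sum, Real.exp_sum, Real.exp_sum,
    ← Finset.prod_mul_distrib]
  congr 1
  · refine Finset.prod_congr rfl fun e _ => ?_
    simp only [kJ, Pi.add_apply, ka, kL, AddMonoidHom.coe_mk, ZeroHom.coe_mk, add_zero, gS]
  · refine Finset.prod_congr rfl fun s _ => ?_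
    simp only [kJ, Pi.add_apply, ka, kL, AddMonoidHom.coe_mk, ZeroHom.coe_mk,
      AddCircle.coe_zero, zero_add]
    congr 4
    abel

theorem int_kW {N : ℕ} (b c : ℝ) (t : Ed N → ℝ) (θ : inner N → T) :
    ∫ z : Sq N → T, kW b c ((fun e => ((ka t e : ℝ) : T)) + kL N z) (ext θ) ∂torusHaar (Sq N) =
      ∏ e, gE b c e (dth θ e + ((t e : ℝ) : T)) := by
  simp_rw [kW_factor]
  rw [integral_const_mul]
  unfold torusHaar
  rw [integral_fintype_prod_eq_prod (𝕜 := ℝ) (fun (s : Sq N) (z : T) =>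
    Real.exp (c * cosT ((kd (ext θ) (Sum.inr (Sum.inl s) : KB N) +
        ((t (Sum.inl s) : ℝ) : T)) - z)) *
        Real.exp (c * cosT (kd (ext θ) (Sum.inr (Sum.inr s) : KB N) + z)))]
  simp_rw [int_gD]
  rw [prod_Ed, mul_comm]
  refine congrArg₂ (· * ·) (Finset.prod_congr rfl fun s _ => ?_)
    (Finset.prod_congr rfl fun e _ => ?_)
  · show gD c _ = gD c (dth θ (Sum.inl s) + ((t (Sum.inl s) : ℝ) : T))
    refine congrArg (gD c) ?_
    unfold dth kd
    simp only [ku, kv, st, en]
    abel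
  · rfl

/-- the identified model averaged over the angles of the split vertices is the triangulated
model -/
theorem ZT_eq {N : ℕ} (b c : ℝ) (t : Ed N → ℝ) :
    ZT N b c t = ∫ z : Sq N → T,
      ZA muInf (kJ b c) (kchi N) ((fun e => ((ka t e : ℝ) : T)) + kL N z) ∂torusHaar (Sq N) := by
  simp_rw [ZA_kW]
  have hc : Continuous (Function.uncurry fun (z : Sq N → T) (θ : inner N → T) =>
      kW b c ((fun e => ((ka t e : ℝ) : T)) + kL N z) (ext θ)) := by
    have h1 : Continuous fun p : (Sq N → T) × (inner N → T) =>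
        (((fun e => ((ka t e : ℝ) : T)) + kL N p.1, ext p.2) : (KB N → T) × Ginf) :=
      (continuous_const.add ((kL_cont N).comp continuous_fst)).prodMk
        ((ext_cont (inner N)).comp continuous_snd)
    have h2 := Continuous.comp (kW_cont2 b c) h1
    exact h2
  rw [integral_integral_swap (cint hc)]
  unfold ZT
  congr 1
  funext θ
  exact (int_kW b c t θ).symm

/-- the splitting inequality for the triangulated block -/
theorem ZT_split {N : ℕ} {b c : ℝ} (hb : 0 ≤ b) (hc : 0 ≤ c) (t : Ed N → ℝ) :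
    Zr muInf (kJ b c) (kchi N) (ka t) * ZT N b c 0 ≤
      Zr muInf (kJ b c) (kchi N) 0 * ZT N b c t := by
  have h := ZA_split muInf (kJ b c) (kchi N) (torusHaar (Sq N)) pi_div2 (kJ_nonneg hb hc)
    (kL N) (kL_cont N) (fun e => ((ka t e : ℝ) : T))
  rw [← ZT_eq, ZA_coe] at h
  have e0 : ZT N b c 0 = ∫ z : Sq N → T, ZA muInf (kJ b c) (kchi N) (kL N z) ∂torusHaar (Sq N) := by
    rw [ZT_eq]
    have : ((fun e => ((ka (0 : Ed N → ℝ) e : ℝ) : T)) : KB N → T) = 0 := by
      funext e
      rcases e with e | e | e <;> simp [ka]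
    rw [this]
    simp only [zero_add]
  have e1 : ZA muInf (kJ b c) (kchi N) 0 = Zr muInf (kJ b c) (kchi N) 0 := by
    rw [← ZA_coe]
    congr 1
  rw [e0, ← e1]
  exact h

theorem ZT_pos {N : ℕ} (b c : ℝ) (t : Ed N → ℝ) : 0 < ZT N b c t := by
  rw [ZT_eq]
  have hc : Continuous fun z : Sq N → T =>
      ZA muInf (kJ b c) (kchi N) ((fun e => ((ka t e : ℝ) : T)) + kL N z) :=
    (ZA_cont muInf (kJ b c) (kchi N)).comp (continuous_const.add (kL_cont N))
  rw [integral_pos_iff_support_of_nonneg (fun z => (ZA_pos _ _ _ _).le) (cint hc)]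
  have : Function.support (fun z : Sq N → T =>
      ZA muInf (kJ b c) (kchi N) ((fun e => ((ka t e : ℝ) : T)) + kL N z)) = Set.univ := by
    ext z
    simp only [Function.mem_support, Set.mem_univ, iff_true]
    exact (ZA_pos _ _ _ _).ne'
  rw [this]
  simp

/-- upper bound of the stiffness form -/
theorem QQ_le_sum {G : Type*} [AddCommGroup G] [TopologicalSpace G] [IsTopologicalAddGroup G]
    [CompactSpace G] [SecondCountableTopology G] [MeasurableSpace G] [BorelSpace G]
    (μ : Measure G) [μ.IsAddHaarMeasure] [IsProbabilityMeasure μ]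
    {κ : Type*} [Fintype κ] (J : κ → ℝ) (χ : κ → Chr G) (hJ : ∀ e, 0 ≤ J e) (a : κ → ℝ) :
    QQ μ J χ 0 a a ≤ ∑ e, J e * a e ^ 2 := by
  unfold QQ
  rw [jm_zero, mul_zero, add_zero]
  have h1 : ex μ J χ 0 (Bt J χ 0 a a) ≤ ∑ e, J e * a e ^ 2 := by
    have h := ex_mono μ J χ (t := 0) (cont_Bt J χ 0 a a)
      (continuous_const (y := ∑ e, J e * a e ^ 2)) (fun x => by
        unfold Bt
        refine Finset.sum_le_sum fun e _ => ?_
        rw [Ct_zero]
        have h2 := (abs_le.1 ((χ e).abs_c_le x)).2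
        have h3 : 0 ≤ J e * a e ^ 2 := mul_nonneg (hJ e) (sq_nonneg _)
        nlinarith only [h2, h3])
    rwa [ex_const] at h
  have h2 : 0 ≤ ex μ J χ 0 (fun x => Jt J χ 0 a x * Jt J χ 0 a x) := by
    have h := ex_mono μ J χ (t := 0) (continuous_const (y := (0 : ℝ)))
      ((cont_Jt J χ 0 a).mul (cont_Jt J χ 0 a)) (fun x => mul_self_nonneg _)
    rwa [ex_const] at h
  linarith only [h1, h2]

/-- Gaussian lower bound for the twisted partition function of the triangulated block -/
theorem ZT_gauss {N : ℕ} {b c : ℝ} (hb : 0 ≤ b) (hc : 0 ≤ c) (t : Ed N → ℝ) :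
    ZT N b c 0 * Real.exp (-(1 / 2) * ∑ e, cpl b c e * t e ^ 2) ≤ ZT N b c t := by
  have h1 := ZT_split hb hc t
  have h2 := lowerZ muInf (kJ b c) (kchi N) pi_div2 (kJ_nonneg hb hc) (ka t)
  have h3 := QQ_le_sum muInf (kJ b c) (kchi N) (kJ_nonneg hb hc) (ka t)
  have z0 := Zr_pos muInf (kJ b c) (kchi N) 0
  have e1 : ∑ e, kJ b c e * ka t e ^ 2 = ∑ e, cpl b c e * t e ^ 2 := by
    rw [sum_KB, sum_Ed, add_comm]
    simp only [kJ, ka, cpl]
    simp
  rw [e1] at h3
  have h4 : Real.exp (-(1 / 2) * ∑ e, cpl b c e * t e ^ 2) ≤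
      Zr muInf (kJ b c) (kchi N) (ka t) / Zr muInf (kJ b c) (kchi N) 0 := by
    refine le_trans ?_ h2
    rw [Real.exp_le_exp]
    linarith only [h3]
  rw [le_div_iff₀ z0] at h4
  have p0 := ZT_pos (N := N) b c 0
  have h5 := mul_le_mul_of_nonneg_right h4 p0.le
  have h6 : Zr muInf (kJ b c) (kchi N) 0 *
      (ZT N b c 0 * Real.exp (-(1 / 2) * ∑ e, cpl b c e * t e ^ 2)) ≤
      Zr muInf (kJ b c) (kchi N) 0 * ZT N b c t := by
    linarith only [h1, h5]
  exact le_of_mul_le_mul_left h6 z0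

end Vale.Agent.P159.H261
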